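import Vale.Agent.Lib.P126.Main
import Vale.Agent.Lib.P126.ProdBody

/-!
P126: the duality of metric entropy passes to Cartesian products of pairs.
-/

namespace Vale.Agent.Results.P126.Products

open Vale.Agent.P126

/-- If `(K₁, s L₁)` and `(K₂, s L₂)` satisfy the two inequalities of Q1 with constants `a, b` for
all `s > 0`, then the pair `(K₁ × K₂, s L₁ × t L₂)` of origin-symmetric convex bodies satisfies them
with constants `4 a, b`, for all `s, t > 0`. -/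
theorem result {ι κ : Type} [Fintype ι] [Fintype κ] {a b : ℝ} (ha : 1 ≤ a) (hb : 1 ≤ b)
    {K₁ L₁ : Set (ι → ℝ)} {K₂ L₂ : Set (κ → ℝ)}
    (hK₁ : SymBody K₁) (hL₁ : SymBody L₁) (hK₂ : SymBody K₂) (hL₂ : SymBody L₂)
    (d₁ : ∀ s : ℝ, 0 < s → Dual a b K₁ (dil s L₁))
    (d₂ : ∀ s : ℝ, 0 < s → Dual a b K₂ (dil s L₂)) {s t : ℝ} (hs : 0 < s) (ht : 0 < t) :
    SymBody (prodB K₁ K₂) ∧ SymBody (prodB (dil s L₁) (dil t L₂)) ∧
      Dual (4 * a) b (prodB K₁ K₂) (prodB (dil s L₁) (dil t L₂)) := by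
  refine ⟨prodB_body hK₁ hK₂, prodB_body (hL₁.dil hs) (hL₂.dil ht), ?_⟩
  refine main_prod ha hb hK₁ (hL₁.dil hs) hK₂ (hL₂.dil ht) (d₁ s hs) ?_ (d₂ t ht) ?_
  · rw [dil_dil]
    exact d₁ (2 * s) (by positivity)
  · rw [dil_dil]
    exact d₂ (2 * t) (by positivity)

end Vale.Agent.Results.P126.Products
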